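import Vale.Agent.P183.Fam2
import Vale.Agent.P183.Coset

namespace Vale.Agent.Results.P183.Family

open Vale.Agent.P183

theorem result (n : ℕ) (h0 : 0 < n) (he : Even n) :
    (∃ (B : FinAlg) (e : B.Con ≃ LF n), ∀ r s, r ≤ s ↔ (e r).le (e s)) ∧
    ∃ (G : Type) (_ : Group G) (_ : Finite G) (H : Subgroup G) (e : Set.Ici H ≃ LF n),
      ∀ r s, r ≤ s ↔ (e r).le (e s) := by
  obtain ⟨G, _, _, H, e, h⟩ := Fam.family h0 he
  obtain ⟨f⟩ := con_iso H
  exact ⟨⟨cosetAlg H, f.toEquiv.trans e, fun r s => by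
    rw [← f.le_iff_le, h]; rfl⟩, G, inferInstance, inferInstance, H, e, h⟩

end Vale.Agent.Results.P183.Family
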