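import Vale.Agent.P183.Cls
import Vale.Agent.P183.Coset

namespace Vale.Agent.Results.P183.SevenElements

open Vale.Agent.P183

theorem result : (∃ B : FinAlg, Nonempty (B.Con ≃o L7)) ∧
    ∃ (G : Type) (_ : Group G) (_ : Finite G) (H : Subgroup G), Nonempty (Set.Ici H ≃o L7) := by
  obtain ⟨e⟩ := interval
  obtain ⟨f⟩ := con_iso (M 0)
  exact ⟨⟨cosetAlg (M 0), ⟨f.trans e⟩⟩, G, inferInstance, inferInstance, M 0, ⟨e⟩⟩

end Vale.Agent.Results.P183.SevenElements
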